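import Vale.Agent.Lib.P183.RepBase

namespace Vale.Agent.Lib.P183

/-- A unary algebra with congruence lattice number 2 of the list. -/
def L4_0ops : List (List Nat) := [[2, 2, 0]]
def L4_0parts : List (List Nat) := [[0, 1, 2], [0, 0, 2], [0, 1, 0], [0, 0, 0]]

theorem repL4_0 : RepMat (szOf 2) (matOf (codeOf 2)) :=
  repU_of_check 2 3 L4_0ops L4_0parts (by decide +kernel) (by decide +kernel)

end Vale.Agent.Lib.P183
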