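import Vale.Agent.Lib.P183.RepBase

namespace Vale.Agent.Lib.P183

/-- A unary algebra with congruence lattice number 3 of the list. -/
def L5_0ops : List (List Nat) := [[4, 2, 3, 3, 3], [0, 0, 1, 4, 0]]
def L5_0parts : List (List Nat) := [[0, 1, 2, 3, 4], [0, 1, 2, 2, 1], [0, 0, 2, 3, 2], [0, 1, 2, 0, 0], [0, 0, 0, 0, 0]]

theorem repL5_0 : RepMat (szOf 3) (matOf (codeOf 3)) :=
  repU_of_check 3 5 L5_0ops L5_0parts (by decide +kernel) (by decide +kernel)

end Vale.Agent.Lib.P183
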