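import Vale.Agent.Lib.P183.RepBase

namespace Vale.Agent.Lib.P183

/-- A transitive permutation algebra with congruence lattice number 5 of the list. -/
def L6_0gens : List Nat := [680569926138745133290063559780565516291, 2041735740455099823870819941872029532161]
def L6_0labs : List Nat := [2722295281920892471288868492363945803776, 10384672946441095341576173920518144, 2041725355782154591664404773663431196672, 680569926138737879624463718700514607104, 340282367079394788528797052249841926144, 0]
def L6_0bms : List Nat := [1, 273, 7, 73, 161, 511]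
def L6_0stab : List (List Nat) := []
def L6_0roots : List RootData := [(1, [1], 2), (2, [1, 1], 2), (3, [0], 3), (4, [1, 0], 1), (5, [1, 1, 0], 4), (6, [0, 0], 3), (7, [1, 0, 0], 4), (8, [1, 1, 0, 0], 1)]
def L6_0join : List Nat := [0, 1, 2, 3, 4, 5, 0, 0, 1, 1, 5, 5, 5, 5, 0, 0, 2, 5, 2, 5, 5, 5, 0, 0, 3, 5, 5, 3, 5, 5, 0, 0, 4, 5, 5, 5, 4, 5, 0, 0, 5, 5, 5, 5, 5, 5, 0, 0, 0, 0, 0, 0, 0, 0, 0, 0, 0, 0, 0, 0, 0, 0, 0, 0]
def L6_0mv : Nat := 174568847127008984325672524429801069543424
def L6_0fr : Nat := 0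

theorem repL6_0 : RepMat (szOf 5) (matOf (codeOf 5)) :=
  repP_of_check 5 9 L6_0gens L6_0labs L6_0bms L6_0stab L6_0roots L6_0join L6_0mv L6_0fr
    (by decide +kernel) (by decide +kernel)

end Vale.Agent.Lib.P183
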