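import Vale.Agent.Lib.P183.RepBase

namespace Vale.Agent.Lib.P183

/-- A transitive permutation algebra with congruence lattice number 6 of the list. -/
def L6_1gens : List Nat := [766260924170691602427934044227868790805845362637537281, 957825789737600200556383831200395943683228705535361026, 1053605299562381328232603147180457479890407323326283776, 957825789737600200556383831200395943683228705535361026, 191563404221377164247480755516644071457222258759958531, 862043356998746711303717154691577640480197948201172996]
def L6_1labs : List Nat := [1053605299562381328232603147180457479890407323326283776, 191561942630538553915543596091568538775131500438421504, 2923092477982887518117737642373725768456066891776, 862040433950870559116396233153284596234577464044552192, 766259462624451760265276623953901856271254070423977984, 0]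
def L6_1bms : List Nat := [1, 1041, 2113, 3, 39, 4095]
def L6_1stab : List (List Nat) := [[1, 5, 4]]
def L6_1roots : List RootData := [(1, [0], 3), (2, [1], 4), (3, [4], 5), (4, [5], 1), (6, [4, 0], 2), (7, [5, 0], 5)]
def L6_1join : List Nat := [0, 1, 2, 3, 4, 5, 0, 0, 1, 1, 5, 5, 5, 5, 0, 0, 2, 5, 2, 5, 5, 5, 0, 0, 3, 5, 5, 3, 4, 5, 0, 0, 4, 5, 5, 4, 4, 5, 0, 0, 5, 5, 5, 5, 5, 5, 0, 0, 0, 0, 0, 0, 0, 0, 0, 0, 0, 0, 0, 0, 0, 0, 0, 0]
def L6_1mv : Nat := 49423735339210149190908572562431789895500278947196698624
def L6_1fr : Nat := 24520302803982456327990383862511397817871686020586536960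

theorem repL6_1 : RepMat (szOf 6) (matOf (codeOf 6)) :=
  repP_of_check 6 12 L6_1gens L6_1labs L6_1bms L6_1stab L6_1roots L6_1join L6_1mv L6_1fr
    (by decide +kernel) (by decide +kernel)

end Vale.Agent.Lib.P183
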