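import Vale.Agent.Lib.P183.RepBase

namespace Vale.Agent.Lib.P183

/-- A unary algebra with congruence lattice number 7 of the list. -/
def L6_2ops : List (List Nat) := [[5, 2, 3, 3, 3, 3, 4], [5, 5, 1, 5, 6, 0, 0], [1, 0, 6, 6, 6, 6, 5]]
def L6_2parts : List (List Nat) := [[0, 1, 2, 3, 4, 5, 6], [0, 1, 2, 0, 2, 0, 1], [0, 0, 2, 3, 4, 2, 6], [0, 1, 2, 3, 3, 5, 5], [0, 0, 2, 3, 3, 2, 2], [0, 0, 0, 0, 0, 0, 0]]

theorem repL6_2 : RepMat (szOf 7) (matOf (codeOf 7)) :=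
  repU_of_check 7 7 L6_2ops L6_2parts (by decide +kernel) (by decide +kernel)

end Vale.Agent.Lib.P183
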