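import Vale.Agent.Lib.P183.RepBase

namespace Vale.Agent.Lib.P183

/-- A unary algebra with congruence lattice number 9 of the list. -/
def L6_5ops : List (List Nat) := [[0, 0, 3, 3, 3, 3, 0, 0], [1, 1, 7, 7, 1, 1, 1, 1], [4, 5, 6, 6, 6, 6, 4, 5], [6, 6, 7, 6, 6, 7, 4, 4], [2, 2, 5, 5, 5, 5, 5, 5], [3, 2, 3, 3, 3, 3, 3, 2]]
def L6_5parts : List (List Nat) := [[0, 1, 2, 3, 4, 5, 6, 7], [0, 1, 2, 2, 4, 4, 6, 6], [0, 1, 2, 0, 4, 2, 4, 1], [0, 1, 2, 0, 0, 2, 0, 1], [0, 0, 2, 2, 4, 4, 6, 6], [0, 0, 0, 0, 0, 0, 0, 0]]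

theorem repL6_5 : RepMat (szOf 9) (matOf (codeOf 9)) :=
  repU_of_check 9 8 L6_5ops L6_5parts (by decide +kernel) (by decide +kernel)

end Vale.Agent.Lib.P183
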