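import Vale.Agent.Lib.P183.RepBase

namespace Vale.Agent.Lib.P183

/-- A unary algebra with congruence lattice number 10 of the list. -/
def L6_6ops : List (List Nat) := [[0, 3, 0, 3], [0, 1, 1, 3]]
def L6_6parts : List (List Nat) := [[0, 1, 2, 3], [0, 1, 2, 1], [0, 1, 2, 0], [0, 1, 1, 0], [0, 0, 2, 0], [0, 0, 0, 0]]

theorem repL6_6 : RepMat (szOf 10) (matOf (codeOf 10)) :=
  repU_of_check 10 4 L6_6ops L6_6parts (by decide +kernel) (by decide +kernel)

end Vale.Agent.Lib.P183
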