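import Vale.Agent.Lib.P183.RepBase

namespace Vale.Agent.Lib.P183

/-- A unary algebra with congruence lattice number 11 of the list. -/
def L6_7ops : List (List Nat) := [[1, 1, 4, 4, 1, 1, 1], [3, 3, 3, 2, 5, 2, 0], [4, 4, 4, 6, 1, 6, 5], [5, 1, 5, 5, 4, 5, 6]]
def L6_7parts : List (List Nat) := [[0, 1, 2, 3, 4, 5, 6], [0, 0, 2, 2, 4, 0, 4], [0, 1, 2, 3, 1, 3, 6], [0, 1, 0, 3, 1, 3, 6], [0, 1, 0, 3, 1, 3, 3], [0, 0, 0, 0, 0, 0, 0]]

theorem repL6_7 : RepMat (szOf 11) (matOf (codeOf 11)) :=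
  repU_of_check 11 7 L6_7ops L6_7parts (by decide +kernel) (by decide +kernel)

end Vale.Agent.Lib.P183
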