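import Vale.Agent.Lib.P183.RepBase

namespace Vale.Agent.Lib.P183

/-- A transitive permutation algebra with congruence lattice number 12 of the list. -/
def L7_0gens : List Nat := [19435587315731334604037550897492372425815166925294255684462002301888167940, 24736263311033983149007088958679602129546201069870362846373090920197259265, 8834424045986873648028975332566020010720346865852689866070301366192046080]
def L7_0labs : List Nat := [26503083416277070190274937426090193213258760153527542211303703917556203520, 1766847066012525301969239132833821514610258180562833743478332323254042624, 26960769438260701384819505884088095725744535024402496597851098906624, 21202488301637206760627808242354591762913489415231133729383601143069802496, 3533775009396776388187715850758101768488684422496377825249945816492212224, 5300595114639863429647129183735601450345270738296408481920102774486401024, 0]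
def L7_0bms : List Nat := [1, 17025, 33825, 15, 10305, 4369, 65535]
def L7_0stab : List (List Nat) := [[2]]
def L7_0roots : List RootData := [(1, [1], 3), (4, [0], 5), (5, [1, 0], 2), (6, [0, 2, 1], 4), (7, [1, 0, 2, 1], 1)]
def L7_0join : List Nat := [0, 1, 2, 3, 4, 5, 6, 0, 1, 1, 6, 6, 6, 6, 6, 0, 2, 6, 2, 6, 6, 6, 6, 0, 3, 6, 6, 3, 6, 6, 6, 0, 4, 6, 6, 6, 4, 6, 6, 0, 5, 6, 6, 6, 6, 5, 6, 0, 6, 6, 6, 6, 6, 6, 6, 0, 0, 0, 0, 0, 0, 0, 0, 0]
def L7_0mv : Nat := 1360499874141041240858303673759672202861684977906642262785955562027023925248
def L7_0fr : Nat := 452319750434927077592753646242207899379031869915032066885401985799065436160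

theorem repL7_0 : RepMat (szOf 12) (matOf (codeOf 12)) :=
  repP_of_check 12 16 L7_0gens L7_0labs L7_0bms L7_0stab L7_0roots L7_0join L7_0mv L7_0fr
    (by decide +kernel) (by decide +kernel)

end Vale.Agent.Lib.P183
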