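import Vale.Agent.Lib.P183.RepBase

namespace Vale.Agent.Lib.P183

/-- A unary algebra with congruence lattice number 23 of the list. -/
def L7_13ops : List (List Nat) := [[3, 4, 3, 3, 4], [4, 1, 1, 4, 4], [1, 2, 1, 1, 2], [0, 2, 2, 0, 0]]
def L7_13parts : List (List Nat) := [[0, 1, 2, 3, 4], [0, 1, 1, 3, 3], [0, 1, 0, 3, 1], [0, 1, 2, 0, 4], [0, 1, 0, 0, 1], [0, 1, 1, 0, 0], [0, 0, 0, 0, 0]]

theorem repL7_13 : RepMat (szOf 23) (matOf (codeOf 23)) :=
  repU_of_check 23 5 L7_13ops L7_13parts (by decide +kernel) (by decide +kernel)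

end Vale.Agent.Lib.P183
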