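import Vale.Agent.Lib.P183.RepBase

namespace Vale.Agent.Lib.P183

/-- A unary algebra with congruence lattice number 32 of the list. -/
def L7_25ops : List (List Nat) := [[4, 0, 0, 5, 0, 0, 0, 5, 4, 4, 4, 0], [7, 7, 7, 8, 3, 3, 7, 11, 11, 7, 8, 8], [5, 1, 2, 5, 5, 5, 1, 5, 5, 1, 1, 1], [2, 6, 2, 6, 2, 6, 2, 9, 9, 2, 6, 6], [11, 9, 9, 6, 10, 9, 10, 6, 6, 10, 9, 9]]
def L7_25parts : List (List Nat) := [[0, 1, 2, 3, 4, 5, 6, 7, 8, 9, 10, 11], [0, 1, 2, 3, 0, 1, 6, 3, 8, 6, 8, 8], [0, 1, 1, 3, 4, 4, 1, 7, 7, 9, 9, 11], [0, 1, 2, 3, 0, 1, 0, 3, 8, 0, 8, 8], [0, 1, 1, 3, 4, 4, 1, 7, 7, 9, 9, 1], [0, 1, 1, 0, 4, 4, 1, 7, 7, 9, 9, 1], [0, 0, 0, 0, 0, 0, 0, 0, 0, 0, 0, 0]]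

theorem repL7_25 : RepMat (szOf 32) (matOf (codeOf 32)) :=
  repU_of_check 32 12 L7_25ops L7_25parts (by decide +kernel) (by decide +kernel)

end Vale.Agent.Lib.P183
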