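import Vale.Agent.Lib.P183.RepBase

namespace Vale.Agent.Lib.P183

/-- A unary algebra with congruence lattice number 33 of the list. -/
def L7_26ops : List (List Nat) := [[3, 1, 3, 1, 3, 1], [1, 5, 5, 0, 5, 1], [5, 4, 5, 4, 1, 0]]
def L7_26parts : List (List Nat) := [[0, 1, 2, 3, 4, 5], [0, 1, 2, 3, 0, 1], [0, 1, 2, 1, 4, 0], [0, 1, 0, 3, 0, 1], [0, 1, 2, 1, 1, 0], [0, 0, 2, 0, 0, 0], [0, 0, 0, 0, 0, 0]]

theorem repL7_26 : RepMat (szOf 33) (matOf (codeOf 33)) :=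
  repU_of_check 33 6 L7_26ops L7_26parts (by decide +kernel) (by decide +kernel)

end Vale.Agent.Lib.P183
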