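import Vale.Agent.Lib.P183.RepBase

namespace Vale.Agent.Lib.P183

/-- A unary algebra with congruence lattice number 34 of the list. -/
def L7_28ops : List (List Nat) := [[1, 3, 3, 1, 1], [2, 3, 0, 1, 2], [4, 0, 0, 4, 4]]
def L7_28parts : List (List Nat) := [[0, 1, 2, 3, 4], [0, 1, 1, 0, 4], [0, 1, 2, 3, 0], [0, 1, 2, 1, 0], [0, 1, 1, 0, 0], [0, 1, 0, 1, 0], [0, 0, 0, 0, 0]]

theorem repL7_28 : RepMat (szOf 34) (matOf (codeOf 34)) :=
  repU_of_check 34 5 L7_28ops L7_28parts (by decide +kernel) (by decide +kernel)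

end Vale.Agent.Lib.P183
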