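import Vale.Agent.Lib.P183.RepBase

namespace Vale.Agent.Lib.P183

/-- A unary algebra with congruence lattice number 35 of the list. -/
def L7_29ops : List (List Nat) := [[4, 4, 4, 5, 2, 3, 4], [0, 2, 2, 6, 0, 2, 6], [1, 1, 6, 0, 6, 0, 1], [5, 3, 3, 5, 5, 3, 5]]
def L7_29parts : List (List Nat) := [[0, 1, 2, 3, 4, 5, 6], [0, 1, 1, 3, 4, 3, 1], [0, 1, 2, 3, 4, 5, 0], [0, 1, 2, 3, 3, 2, 0], [0, 0, 0, 3, 4, 3, 0], [0, 0, 0, 3, 0, 3, 0], [0, 0, 0, 0, 0, 0, 0]]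

theorem repL7_29 : RepMat (szOf 35) (matOf (codeOf 35)) :=
  repU_of_check 35 7 L7_29ops L7_29parts (by decide +kernel) (by decide +kernel)

end Vale.Agent.Lib.P183
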