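import Vale.Agent.Lib.P183.RepBase

namespace Vale.Agent.Lib.P183

/-- A transitive permutation algebra with congruence lattice number 15 of the list. -/
def L7_3gens : List Nat := [663319580746572324571458251060431047517072170456572185278724726095112300782674347746876015664407319088009392975490591809407554524613717676932299356655625108835631831977155494897301620796777383850567318081232558010126289525276673, 1042353763931572692649793621183795792075206482796404485838730280091231395504387266298558667688746611709014078032687907166308714485070339352804195387918978269083021809183951314815905745883586759746660786440634220329710194363006978, 1113423125187181345360370050440818025504788402534486454550949023777187252286696684619404126815981166939820816625815363321015161971893694926676690589541080611154166290705935207111909095230581670735952418430882443277978096290365443]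
def L7_3labs : List Nat := [1113425294090573808165529822388244029156004877533110209952251276034096663513921918680551583939176278411018357464930829195832759663239540841611666527399294216122005156939544234071746546737403045034124642410207532168295916075286528, 1018663856366138902769067902903200976592833610022604708350919477912702403918039714810179409077915423167287305490047257721023444233155774151633131406778313900274713431859282921369860441591016061788781020721545755884027872509231104, 189521429327581041076603223622055202126993713396680532081437190945289864451032029727588867496541048080040699459207772166260638767680200314298347067714152270029331063342173714119491752588100433878958359344840758086288696263376896, 213205914808277309364795512042912503592317746594204103590515040362577734185101565833002828645527020025992723781097552425635912862700549715079222877226741565825055346052073606401373429914770182953738131432080677938975241500950528, 402724813874509132957567974322854917491546162522864208734827678073245444774045337690129916517111750263014669772276367750763655331502091792049296952732657162112406562193710506038161356538585254202658240310816420648653959060324352, 23689546091647075226317702654626374736687463548304094128086781318009543650376412427363937772449588175265752401339558616564294844720763950424058442718327064717692118241886396001894657884702855883249258938136304567681929248309248,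 0]
def L7_3bms : List Nat := [1, 264193, 17600775979017, 70368777797633, 4297080833, 89142220374185, 281474976710655]
def L7_3stab : List (List Nat) := [[1, 1, 2, 1], [0, 1, 2, 0, 1]]
def L7_3roots : List RootData := [(1, [0], 6), (2, [1], 6), (3, [2], 2), (5, [1, 0], 5), (6, [2, 0], 6), (9, [0, 2], 6), (10, [1, 2], 6), (11, [1, 0, 0], 1), (12, [2, 0, 0], 6), (14, [2, 1, 0], 4), (16, [1, 2, 0], 3), (18, [0, 1, 1], 1), (19, [2, 1, 1], 6), (20, [0, 0, 2], 6)]
def L7_3join : List Nat := [0, 1, 2, 3, 4, 5, 6, 0, 1, 1, 6, 6, 6, 6, 6, 0, 2, 6, 2, 5, 5, 5, 6, 0, 3, 6, 5, 3, 5, 5, 6, 0, 4, 6, 5, 5, 4, 5, 6, 0, 5, 6, 5, 5, 5, 5, 6, 0, 6, 6, 6, 6, 6, 6, 6, 0, 0, 0, 0, 0, 0, 0, 0, 0]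
def L7_3mv : Nat := 36387605480398533266660936382602792546257919467968178747429650687689539814022236148450240349613398749834473974092887685512642779179053954038439094208612103582029886055825879780877509994062219423058717182620714041091574218239246336
def L7_3fr : Nat := 12152829680892384737154486414031198667836716702055066414415356221066903178471792192286545917079676477767010530551408029222905702552703479839746480518829510627737297455049243284832646269821679674429542556997719085653825189736087552

theorem repL7_3 : RepMat (szOf 15) (matOf (codeOf 15)) :=
  repP_of_check 15 48 L7_3gens L7_3labs L7_3bms L7_3stab L7_3roots L7_3join L7_3mv L7_3fr
    (by decide +kernel) (by decide +kernel)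

end Vale.Agent.Lib.P183
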