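import Vale.Agent.Lib.P183.RepBase

namespace Vale.Agent.Lib.P183

/-- A unary algebra with congruence lattice number 37 of the list. -/
def L7_32ops : List (List Nat) := [[2, 4, 0, 0, 1], [1, 2, 1, 4, 2], [0, 2, 2, 3, 0]]
def L7_32parts : List (List Nat) := [[0, 1, 2, 3, 4], [0, 1, 1, 3, 0], [0, 1, 0, 3, 4], [0, 1, 0, 3, 1], [0, 1, 0, 0, 1], [0, 0, 0, 3, 0], [0, 0, 0, 0, 0]]

theorem repL7_32 : RepMat (szOf 37) (matOf (codeOf 37)) :=
  repU_of_check 37 5 L7_32ops L7_32parts (by decide +kernel) (by decide +kernel)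

end Vale.Agent.Lib.P183
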