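import Vale.Agent.Lib.P183.RepBase

namespace Vale.Agent.Lib.P183

/-- A unary algebra with congruence lattice number 38 of the list. -/
def L7_33ops : List (List Nat) := [[2, 8, 2, 0, 0, 5, 2, 8, 8, 9], [4, 6, 6, 7, 5, 2, 9, 9, 6, 2], [4, 4, 4, 4, 3, 4, 3, 3, 4, 4], [0, 2, 0, 2, 2, 2, 0, 2, 2, 0], [7, 5, 7, 5, 7, 5, 7, 7, 7, 5], [1, 8, 1, 8, 7, 8, 7, 7, 1, 8]]
def L7_33parts : List (List Nat) := [[0, 1, 2, 3, 4, 5, 6, 7, 8, 9], [0, 1, 2, 3, 3, 1, 2, 1, 1, 2], [0, 1, 0, 3, 4, 5, 4, 7, 8, 5], [0, 1, 0, 3, 4, 5, 4, 7, 0, 5], [0, 1, 0, 3, 4, 5, 4, 4, 0, 5], [0, 1, 0, 1, 4, 5, 4, 4, 0, 5], [0, 0, 0, 0, 0, 0, 0, 0, 0, 0]]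

theorem repL7_33 : RepMat (szOf 38) (matOf (codeOf 38)) :=
  repU_of_check 38 10 L7_33ops L7_33parts (by decide +kernel) (by decide +kernel)

end Vale.Agent.Lib.P183
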