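import Vale.Agent.Lib.P183.RepBase
import Vale.Agent.Lib.P183.Main7

namespace Vale.Agent.Lib.P183

/-- The numbering of the elements of the lattice. -/
def par23Elt : Fin 7 → Par23
  | 0 => .bot
  | 1 => .c
  | 2 => .a
  | 3 => .b
  | 4 => .bb
  | 5 => .ab
  | 6 => .top

def par23Le : Par23 → Par23 → Bool
  | .bot, _ => true
  | _, .top => true
  | .a, .a => true
  | .a, .ab => true
  | .b, .b => true
  | .b, .ab => true
  | .b, .bb => true
  | .ab, .ab => true
  | .bb, .bb => true
  | .c, .c => true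
  | _, _ => false

theorem par23Le_iff (x y : Par23) : x ≤ y ↔ par23Le x y = true := by
  cases x <;> cases y <;> first
    | exact iff_of_true trivial rfl
    | exact iff_of_false (fun h => h) (by decide)

theorem repL7_7 : RepMat (szOf 18) (matOf (codeOf 18)) := by
  have hsz : szOf 18 = 7 := by decide +kernel
  rw [hsz]
  obtain ⟨A, h1, h2, ops, ⟨e⟩⟩ := par23_representable
  refine ⟨A, h1, h2, ops, fun a => e (par23Elt a), ?_, ?_⟩
  · intro θ
    obtain ⟨x, hx⟩ := e.surjective θ
    have hs : ∃ a, par23Elt a = x := by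
      cases x
      · exact ⟨0, rfl⟩
      · exact ⟨2, rfl⟩
      · exact ⟨3, rfl⟩
      · exact ⟨5, rfl⟩
      · exact ⟨4, rfl⟩
      · exact ⟨1, rfl⟩
      · exact ⟨6, rfl⟩
    obtain ⟨a, rfl⟩ := hs
    exact ⟨a, hx⟩
  · intro a b
    rw [e.le_iff_le, par23Le_iff]
    have key : ∀ a b : Fin 7, par23Le (par23Elt a) (par23Elt b) = matOf (codeOf 18) a.val b.val := by
      decide +kernel
    rw [key]

end Vale.Agent.Lib.P183
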