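import Vale.Agent.Lib.P183.RepBase

namespace Vale.Agent.Lib.P183

/-- A unary algebra with congruence lattice number 0 of the list. -/
def L1_0ops : List (List Nat) := []
def L1_0parts : List (List Nat) := [[0]]

theorem repL1_0 : RepMat (szOf 0) (matOf (codeOf 0)) :=
  repU_of_check 0 1 L1_0ops L1_0parts (by decide +kernel) (by decide +kernel)

end Vale.Agent.Lib.P183
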