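import Vale.Agent.Lib.P183.Rep.L7_1D

namespace Vale.Agent.Lib.P183

theorem L7_1p5d : labOK 7875 L7_1gens (nth L7_1labs 5) (nth L7_1bms 5) = true := by decide +kernel
theorem L7_1p5e : labOK 7875 L7_1gens (nth L7_1labs 6) (nth L7_1bms 6) = true := by decide +kernel

end Vale.Agent.Lib.P183
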