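import Vale.Agent.Lib.P183.Rep.L7_1D

namespace Vale.Agent.Lib.P183

theorem L7_1p2 : (L7_1gens.all fun t => permOK 7875 t) = true := by decide +kernel
theorem L7_1p6 : (allN 7875 fun x => Nat.beq (getT (nth L7_1labs 0) x) x) = true := by decide +kernel
theorem L7_1p7 : mvOK 7875 L7_1gens L7_1mv = true := by decide +kernel
theorem L7_1p9 : frOK 7875 L7_1gens L7_1stab (L7_1roots.map toRD) L7_1fr = true := by decide +kernel
theorem L7_1p10 : L7_1hubs.all (rootOK 7875 L7_1gens L7_1labs L7_1bms L7_1stab) = true := by decide +kernel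
theorem L7_1p11 : L7_1roots.all (rootOKW 7875 L7_1gens L7_1labs L7_1bms L7_1stab L7_1hubs) = true := by decide +kernel
theorem L7_1j0 : (allN 7 fun b => joinOKW 7875 L7_1gens L7_1labs L7_1bms L7_1stab L7_1hubs L7_1roots L7_1join L7_1paths 0 b) = true := by decide +kernel
theorem L7_1j1 : (allN 7 fun b => joinOKW 7875 L7_1gens L7_1labs L7_1bms L7_1stab L7_1hubs L7_1roots L7_1join L7_1paths 1 b) = true := by decide +kernel
theorem L7_1j2 : (allN 7 fun b => joinOKW 7875 L7_1gens L7_1labs L7_1bms L7_1stab L7_1hubs L7_1roots L7_1join L7_1paths 2 b) = true := by decide +kernel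
theorem L7_1j3 : (allN 7 fun b => joinOKW 7875 L7_1gens L7_1labs L7_1bms L7_1stab L7_1hubs L7_1roots L7_1join L7_1paths 3 b) = true := by decide +kernel
theorem L7_1j4 : (allN 7 fun b => joinOKW 7875 L7_1gens L7_1labs L7_1bms L7_1stab L7_1hubs L7_1roots L7_1join L7_1paths 4 b) = true := by decide +kernel
theorem L7_1j5 : (allN 7 fun b => joinOKW 7875 L7_1gens L7_1labs L7_1bms L7_1stab L7_1hubs L7_1roots L7_1join L7_1paths 5 b) = true := by decide +kernel
theorem L7_1j6 : (allN 7 fun b => joinOKW 7875 L7_1gens L7_1labs L7_1bms L7_1stab L7_1hubs L7_1roots L7_1join L7_1paths 6 b) = true := by decide +kernel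

end Vale.Agent.Lib.P183
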