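import Vale.Agent.Lib.P183.Rep.L7_1D

namespace Vale.Agent.Lib.P183

theorem L7_1r0 : (allN 7 fun b => (cond (refT 7875 (nth L7_1labs 0) (nth L7_1labs b)) (matOf (codeOf 13) 0 b) (not (matOf (codeOf 13) 0 b)))) = true := by decide +kernel
theorem L7_1r1 : (allN 7 fun b => (cond (refT 7875 (nth L7_1labs 1) (nth L7_1labs b)) (matOf (codeOf 13) 1 b) (not (matOf (codeOf 13) 1 b)))) = true := by decide +kernel
theorem L7_1r2 : (allN 7 fun b => (cond (refT 7875 (nth L7_1labs 2) (nth L7_1labs b)) (matOf (codeOf 13) 2 b) (not (matOf (codeOf 13) 2 b)))) = true := by decide +kernel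
theorem L7_1r3 : (allN 7 fun b => (cond (refT 7875 (nth L7_1labs 3) (nth L7_1labs b)) (matOf (codeOf 13) 3 b) (not (matOf (codeOf 13) 3 b)))) = true := by decide +kernel
theorem L7_1r4 : (allN 7 fun b => (cond (refT 7875 (nth L7_1labs 4) (nth L7_1labs b)) (matOf (codeOf 13) 4 b) (not (matOf (codeOf 13) 4 b)))) = true := by decide +kernel
theorem L7_1r5 : (allN 7 fun b => (cond (refT 7875 (nth L7_1labs 5) (nth L7_1labs b)) (matOf (codeOf 13) 5 b) (not (matOf (codeOf 13) 5 b)))) = true := by decide +kernel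
theorem L7_1r6 : (allN 7 fun b => (cond (refT 7875 (nth L7_1labs 6) (nth L7_1labs b)) (matOf (codeOf 13) 6 b) (not (matOf (codeOf 13) 6 b)))) = true := by decide +kernel

end Vale.Agent.Lib.P183
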