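import Vale.Agent.Lib.P183.Rep.L7_1A
import Vale.Agent.Lib.P183.Rep.L7_1A2
import Vale.Agent.Lib.P183.Rep.L7_1A3
import Vale.Agent.Lib.P183.Rep.L7_1B
import Vale.Agent.Lib.P183.Rep.L7_1C

namespace Vale.Agent.Lib.P183

theorem L7_1ok : algPW 7875 L7_1gens L7_1labs L7_1bms L7_1stab L7_1hubs L7_1roots L7_1join L7_1mv L7_1fr L7_1paths = true :=
  algPW_intro (by decide) L7_1p2 (by decide +kernel) (by decide +kernel)
    (allN_succ_intro (p := fun j => labOK 7875 L7_1gens (nth L7_1labs j) (nth L7_1bms j)) L7_1p5e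
      (allN_succ_intro L7_1p5d (allN_succ_intro L7_1p5c (allN_succ_intro L7_1p5b L7_1p5a))))
    L7_1p6 L7_1p7 (by decide +kernel) L7_1p9 L7_1p10 L7_1p11
    (allN_succ_intro (p := fun a => allN L7_1labs.length fun b =>
        joinOKW 7875 L7_1gens L7_1labs L7_1bms L7_1stab L7_1hubs L7_1roots L7_1join L7_1paths a b) L7_1j6
      (allN_succ_intro L7_1j5 (allN_succ_intro L7_1j4 (allN_succ_intro L7_1j3 (allN_succ_intro L7_1j2
      (allN_succ_intro L7_1j1 (allN_succ_intro L7_1j0 (allN_zero_intro _))))))))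

theorem L7_1mat : (and (Nat.beq L7_1labs.length (szOf 13)) (allN (szOf 13) fun a => allN (szOf 13) fun b =>
      (cond (refT 7875 (nth L7_1labs a) (nth L7_1labs b)) (matOf (codeOf 13) a b)
        (not (matOf (codeOf 13) a b))))) = true := by
  have hsz : szOf 13 = 7 := by decide +kernel
  rw [hsz]
  refine (Bool.and_eq_true _ _).mpr ⟨by decide +kernel, ?_⟩
  exact allN_succ_intro (p := fun a => allN 7 fun b =>
      (cond (refT 7875 (nth L7_1labs a) (nth L7_1labs b)) (matOf (codeOf 13) a b)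
        (not (matOf (codeOf 13) a b)))) L7_1r6
    (allN_succ_intro L7_1r5 (allN_succ_intro L7_1r4 (allN_succ_intro L7_1r3 (allN_succ_intro L7_1r2
    (allN_succ_intro L7_1r1 (allN_succ_intro L7_1r0 (allN_zero_intro _)))))))

theorem repL7_1 : RepMat (szOf 13) (matOf (codeOf 13)) :=
  repPW_of_check 13 7875 L7_1gens L7_1labs L7_1bms L7_1stab L7_1hubs L7_1roots L7_1join L7_1mv L7_1fr L7_1paths
    L7_1ok L7_1mat

end Vale.Agent.Lib.P183
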